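import Vale.Agent.Lib.P256.Roots

/-!
# The cone of `det (t² I - t L(y) - A(y))` and its lift
-/

namespace Vale.Agent.Lib.P256

open Matrix MvPolynomial

variable {m N : ℕ}

/-! ### Elementary facts on the quadratic forms -/

/-- The quadratic form value `v ⬝ S v`. -/
def qv {n : Type*} [Fintype n] (S : Matrix n n ℝ) (v : n → ℝ) : ℝ := v ⬝ᵥ (S *ᵥ v)

theorem continuous_qv {n : Type*} [Fintype n] (S : Matrix n n ℝ) :
    Continuous (fun v : n → ℝ => qv S v) := by
  unfold qv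
  simp only [dotProduct, mulVec]
  fun_prop

theorem qv_smul {n : Type*} [Fintype n] (S : Matrix n n ℝ) (c : ℝ) (v : n → ℝ) :
    qv S (c • v) = c ^ 2 * qv S v := by
  unfold qv
  rw [mulVec_smul, smul_dotProduct, dotProduct_smul]
  simp only [smul_eq_mul]
  ring

/-- the smaller root of `s² + a s - b`. -/
noncomputable def sm (a b : ℝ) : ℝ := (-a - Real.sqrt (a ^ 2 + 4 * b)) / 2

theorem sm_root (a b : ℝ) (hb : 0 ≤ b) : sm a b ^ 2 + a * sm a b - b = 0 := by
  unfold sm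
  have h : Real.sqrt (a ^ 2 + 4 * b) ^ 2 = a ^ 2 + 4 * b := Real.sq_sqrt (by positivity)
  nlinarith

theorem sm_nonpos (a b : ℝ) (hb : 0 ≤ b) : sm a b ≤ 0 := by
  unfold sm
  have h1 : |a| ≤ Real.sqrt (a ^ 2 + 4 * b) := by
    rw [← Real.sqrt_sq_eq_abs]
    exact Real.sqrt_le_sqrt (by linarith)
  have h2 := neg_abs_le a
  linarith

theorem sm_quad_nonneg (a b s : ℝ) (hb : 0 ≤ b) (hs : s ≤ sm a b) : 0 ≤ s ^ 2 + a * s - b := by
  have hR : Real.sqrt (a ^ 2 + 4 * b) ^ 2 = a ^ 2 + 4 * b := Real.sq_sqrt (by positivity)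
  have hR0 := Real.sqrt_nonneg (a ^ 2 + 4 * b)
  set R := Real.sqrt (a ^ 2 + 4 * b)
  have h1 : s ≤ (-a - R) / 2 := hs
  have h2 : s ≤ (-a + R) / 2 := by linarith
  have h3 : s ^ 2 + a * s - b = (s - (-a - R) / 2) * (s - (-a + R) / 2) := by nlinarith
  rw [h3]
  exact mul_nonneg_of_nonpos_of_nonpos (by linarith) (by linarith)

/-- If `s` is at the right of the smaller root it cannot be a root below it... -/
theorem sm_zero_facts (a b : ℝ) (hb : 0 ≤ b) (h : 0 ≤ sm a b) : b = 0 ∧ a ≤ 0 := by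
  have h0 := sm_nonpos a b hb
  have he : sm a b = 0 := le_antisymm h0 h
  have hr := sm_root a b hb
  rw [he] at hr
  have hb0 : b = 0 := by nlinarith
  refine ⟨hb0, ?_⟩
  unfold sm at he
  rw [hb0] at he
  have : Real.sqrt (a ^ 2 + 4 * 0) = |a| := by
    rw [mul_zero, add_zero, Real.sqrt_sq_eq_abs]
  rw [this] at he
  have := le_abs_self a
  linarith

/-! ### A root attained by minimising the smaller root over the sphere -/

theorem exists_min_root (hN : 0 < N) (L0 A0 : Matrix (Fin N) (Fin N) ℝ) (hL0 : L0.IsSymm)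
    (hA0 : A0.PosSemidef) :
    ∃ s : ℝ, ((s ^ 2) • (1 : Matrix (Fin N) (Fin N) ℝ) + s • L0 - A0).det = 0 ∧
      ∀ v : Fin N → ℝ, v ⬝ᵥ v = 1 → s ≤ sm (qv L0 v) (qv A0 v) := by
  classical
  have hb : ∀ v : Fin N → ℝ, 0 ≤ qv A0 v := fun v => by
    have := hA0.dotProduct_mulVec_nonneg v
    simpa [qv] using this
  set S : Set (Fin N → ℝ) := {v | v ⬝ᵥ v = 1} with hS
  have hclosed : IsClosed S := by
    have : Continuous fun v : Fin N → ℝ => v ⬝ᵥ v := by
      simp only [dotProduct]; fun_prop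
    exact isClosed_eq this continuous_const
  have hbdd : Bornology.IsBounded S := by
    refine (Metric.isBounded_closedBall (x := (0 : Fin N → ℝ)) (r := 1)).subset ?_
    intro v hv
    rw [mem_closedBall_zero_iff, pi_norm_le_iff_of_nonneg zero_le_one]
    intro i
    have h1 : v i ^ 2 ≤ v ⬝ᵥ v := by
      simp only [dotProduct]
      have := Finset.single_le_sum (f := fun j => v j * v j)
        (fun j _ => mul_self_nonneg (v j)) (Finset.mem_univ i)
      simpa [pow_two] using this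
    rw [hv] at h1
    rw [Real.norm_eq_abs]
    exact abs_le_one_iff_mul_self_le_one.mpr (by nlinarith)
  have hcomp : IsCompact S := Metric.isCompact_of_isClosed_isBounded hclosed hbdd
  have hne : S.Nonempty := by
    refine ⟨Pi.single ⟨0, hN⟩ 1, ?_⟩
    simp [hS]
  have hcont : ContinuousOn (fun v : Fin N → ℝ => sm (qv L0 v) (qv A0 v)) S := by
    apply Continuous.continuousOn
    unfold sm
    have h1 := continuous_qv L0
    have h2 := continuous_qv A0
    fun_prop
  obtain ⟨v0, hv0, hmin⟩ := hcomp.exists_isMinOn hne hcont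
  refine ⟨sm (qv L0 v0) (qv A0 v0), ?_, fun v hv => hmin hv⟩
  set s := sm (qv L0 v0) (qv A0 v0) with hs
  set M := (s ^ 2) • (1 : Matrix (Fin N) (Fin N) ℝ) + s • L0 - A0 with hM
  have hqM : ∀ v : Fin N → ℝ, qv M v = s ^ 2 * (v ⬝ᵥ v) + s * qv L0 v - qv A0 v := by
    intro v
    simp only [qv, hM, sub_mulVec, add_mulVec, smul_mulVec, one_mulVec, dotProduct_sub,
      dotProduct_add, dotProduct_smul, smul_eq_mul]
  have hunit : ∀ v : Fin N → ℝ, v ⬝ᵥ v = 1 → 0 ≤ qv M v := by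
    intro v hv
    rw [hqM, hv]
    have h1 : s ≤ sm (qv L0 v) (qv A0 v) := hmin hv
    have h2 := sm_quad_nonneg (qv L0 v) (qv A0 v) s (hb v) h1
    nlinarith
  have hall : ∀ v : Fin N → ℝ, 0 ≤ qv M v := by
    intro v
    by_cases hv : v ⬝ᵥ v = 0
    · have hv0' : v = 0 := dotProduct_self_eq_zero.mp hv
      simp [qv, hv0']
    · have hpos : 0 < v ⬝ᵥ v := lt_of_le_of_ne (by
        simp only [dotProduct]; exact Finset.sum_nonneg fun j _ => mul_self_nonneg _) (Ne.symm hv)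
      set c := Real.sqrt (v ⬝ᵥ v) with hc
      have hc2 : c ^ 2 = v ⬝ᵥ v := Real.sq_sqrt hpos.le
      have hcpos : 0 < c := Real.sqrt_pos.mpr hpos
      have hw : (c⁻¹ • v) ⬝ᵥ (c⁻¹ • v) = 1 := by
        rw [smul_dotProduct, dotProduct_smul, smul_eq_mul, smul_eq_mul, ← hc2]
        field_simp
      have h1 := hunit _ hw
      rw [qv_smul] at h1
      have h2 : 0 < (c⁻¹) ^ 2 := by positivity
      exact nonneg_of_mul_nonneg_right h1 h2
  have hMsymm : M.IsHermitian := by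
    have h1 : L0ᵀ = L0 := hL0
    have h2 : A0ᵀ = A0 := by
      rw [← Matrix.conjTranspose_eq_transpose_of_trivial]; exact hA0.1
    rw [Matrix.IsHermitian, Matrix.conjTranspose_eq_transpose_of_trivial]
    simp only [hM, transpose_sub, transpose_add, transpose_smul, transpose_one, h1, h2]
  have hMpsd : M.PosSemidef :=
    PosSemidef.of_dotProduct_mulVec_nonneg hMsymm (fun x => by simpa [qv] using hall x)
  have hv0unit : v0 ⬝ᵥ v0 = 1 := hv0
  have hq0 : qv M v0 = 0 := by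
    rw [hqM, hv0unit]
    have := sm_root (qv L0 v0) (qv A0 v0) (hb v0)
    rw [← hs] at this
    linarith
  have hnull : M *ᵥ v0 = 0 := by
    have := (hMpsd.dotProduct_mulVec_zero_iff v0).mp (by simpa [qv] using hq0)
    exact this
  have hv0ne : v0 ≠ 0 := by
    intro h
    rw [h] at hv0unit
    simp at hv0unit
  exact Matrix.exists_mulVec_eq_zero_iff.mp ⟨v0, hv0ne, hnull⟩

/-! ### The linear extension `Y ↦ A[Y]` and positivity -/

/-- `A[Y] = ∑ Y i j • B i j`. -/
noncomputable def Aof (B : Fin m → Fin m → Matrix (Fin N) (Fin N) ℝ)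
    (Y : Matrix (Fin m) (Fin m) ℝ) : Matrix (Fin N) (Fin N) ℝ :=
  ∑ i, ∑ j, Y i j • B i j

theorem qv_Aof (B : Fin m → Fin m → Matrix (Fin N) (Fin N) ℝ)
    (Y : Matrix (Fin m) (Fin m) ℝ) (v : Fin N → ℝ) :
    qv (Aof B Y) v = ∑ i, ∑ j, Y i j * qv (B i j) v := by
  unfold qv Aof
  simp only [sum_mulVec, smul_mulVec, dotProduct_sum, dotProduct_smul, smul_eq_mul]

theorem qv_Amat (B : Fin m → Fin m → Matrix (Fin N) (Fin N) ℝ)
    (y : Fin m → ℝ) (v : Fin N → ℝ) :
    qv (Amat B y) v = ∑ i, ∑ j, (y i * y j) * qv (B i j) v := by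
  unfold qv Amat
  simp only [sum_mulVec, smul_mulVec, dotProduct_sum, dotProduct_smul, smul_eq_mul]

theorem Aof_vecMulVec (B : Fin m → Fin m → Matrix (Fin N) (Fin N) ℝ) (y : Fin m → ℝ) :
    Aof B (Matrix.of fun i j => y i * y j) = Amat B y := rfl

theorem qv_Amat_nonneg (B : Fin m → Fin m → Matrix (Fin N) (Fin N) ℝ)
    (hA : ∀ y, (Amat B y).PosSemidef) (y : Fin m → ℝ) (v : Fin N → ℝ) :
    0 ≤ qv (Amat B y) v := by
  have := (hA y).dotProduct_mulVec_nonneg v
  simpa [qv] using this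

open scoped MatrixOrder Matrix.Norms.L2Operator in
theorem psd_decomp {n : Type*} [Fintype n] [DecidableEq n] (Z : Matrix n n ℝ) (hZ : Z.PosSemidef) :
    ∃ C : Matrix n n ℝ, Z = Cᴴ * C := by
  obtain ⟨C, hC⟩ := CStarAlgebra.nonneg_iff_eq_star_mul_self.mp hZ.nonneg
  exact ⟨C, hC⟩

/-- `A` is a positive map: `Z ⪰ 0` implies `A[Z] ⪰ 0`, because `Z` is a sum of `z zᵀ`. -/
theorem qv_Aof_nonneg (B : Fin m → Fin m → Matrix (Fin N) (Fin N) ℝ)
    (hA : ∀ y, (Amat B y).PosSemidef) (Z : Matrix (Fin m) (Fin m) ℝ) (hZ : Z.PosSemidef)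
    (v : Fin N → ℝ) : 0 ≤ qv (Aof B Z) v := by
  obtain ⟨C, hC⟩ := psd_decomp Z hZ
  have hZij : ∀ i j, Z i j = ∑ k, C k i * C k j := by
    intro i j
    rw [hC]
    simp [Matrix.mul_apply, Matrix.conjTranspose_apply]
  rw [qv_Aof]
  have : (∑ i, ∑ j, Z i j * qv (B i j) v) = ∑ k, qv (Amat B (C k)) v := by
    simp only [qv_Amat, hZij, Finset.sum_mul]
    calc _ = ∑ i, ∑ k, ∑ j, C k i * C k j * qv (B i j) v :=
          Finset.sum_congr rfl fun i _ => Finset.sum_comm
      _ = _ := Finset.sum_comm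
  rw [this]
  exact Finset.sum_nonneg fun k _ => qv_Amat_nonneg B hA _ v

/-! ### The radical of the family of quadratic forms -/

/-- `y` lies in the radical: all forms `qv (A(y)) v` vanish. -/
def Rad (B : Fin m → Fin m → Matrix (Fin N) (Fin N) ℝ) (y : Fin m → ℝ) : Prop :=
  ∀ v : Fin N → ℝ, qv (Amat B y) v = 0

theorem qv_Amat_add (B : Fin m → Fin m → Matrix (Fin N) (Fin N) ℝ)
    (hA : ∀ y, (Amat B y).PosSemidef) (v : Fin N → ℝ) (y w : Fin m → ℝ)
    (hw : qv (Amat B w) v = 0) : qv (Amat B (y + w)) v = qv (Amat B y) v := by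
  -- expansion along `y + l w`
  set c : Fin m → Fin m → ℝ := fun i j => qv (B i j) v with hc
  have hexp : ∀ l : ℝ, qv (Amat B (y + l • w)) v =
      qv (Amat B y) v + l * (∑ i, ∑ j, (y i * w j + w i * y j) * c i j)
        + l ^ 2 * qv (Amat B w) v := by
    intro l
    simp only [qv_Amat, Pi.add_apply, Pi.smul_apply, smul_eq_mul, Finset.mul_sum, ← hc]
    simp only [← Finset.sum_add_distrib]
    refine Finset.sum_congr rfl fun i _ => Finset.sum_congr rfl fun j _ => ?_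
    ring
  set β := ∑ i, ∑ j, (y i * w j + w i * y j) * c i j with hβ
  have hβ0 : β = 0 := by
    by_contra hne
    have h := qv_Amat_nonneg B hA (y + (-(qv (Amat B y) v + 1) / β) • w) v
    rw [hexp, hw] at h
    have h2 : -(qv (Amat B y) v + 1) / β * β = -(qv (Amat B y) v + 1) := by
      field_simp
    nlinarith
  have h1 := hexp 1
  rw [one_smul, hw, hβ0] at h1
  simpa using h1

theorem qv_Amat_smul (B : Fin m → Fin m → Matrix (Fin N) (Fin N) ℝ) (v : Fin N → ℝ) (l : ℝ)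
    (y : Fin m → ℝ) : qv (Amat B (l • y)) v = l ^ 2 * qv (Amat B y) v := by
  simp only [qv_Amat, Pi.smul_apply, smul_eq_mul, Finset.mul_sum]
  refine Finset.sum_congr rfl fun i _ => Finset.sum_congr rfl fun j _ => ?_
  ring

/-- The radical as a subspace. -/
def radSub (B : Fin m → Fin m → Matrix (Fin N) (Fin N) ℝ)
    (hA : ∀ y, (Amat B y).PosSemidef) : Submodule ℝ (Fin m → ℝ) where
  carrier := {y | Rad B y}
  add_mem' := by
    intro a b ha hb v
    rw [qv_Amat_add B hA v a b (hb v)]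
    exact ha v
  zero_mem' := by
    intro v
    simp [qv_Amat]
  smul_mem' := by
    intro l y hy v
    rw [qv_Amat_smul, hy v, mul_zero]

/-- A linear projection whose kernel is the radical, and which does not change the forms. -/
theorem exists_proj (B : Fin m → Fin m → Matrix (Fin N) (Fin N) ℝ)
    (hA : ∀ y, (Amat B y).PosSemidef) :
    ∃ P : (Fin m → ℝ) →ₗ[ℝ] (Fin m → ℝ),
      (∀ y v, qv (Amat B (P y)) v = qv (Amat B y) v) ∧ (∀ y, Rad B y → P y = 0) := by
  classical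
  obtain ⟨W', hW'⟩ := Submodule.exists_isCompl (radSub B hA)
  set pr := Submodule.projectionOnto W' (radSub B hA) hW'.symm with hpr
  refine ⟨W'.subtype ∘ₗ pr, ?_, ?_⟩
  · intro y v
    have hmem : y - (W'.subtype ∘ₗ pr) y ∈ radSub B hA := by
      rw [← Submodule.ker_projectionOnto hW'.symm, LinearMap.mem_ker, map_sub]
      simp only [LinearMap.comp_apply, Submodule.subtype_apply]
      rw [← hpr]
      have : pr ((pr y : Fin m → ℝ)) = pr y :=
        Submodule.projectionOnto_apply_left hW'.symm (pr y)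
      rw [this, sub_self]
    have h := qv_Amat_add B hA v ((W'.subtype ∘ₗ pr) y) (y - (W'.subtype ∘ₗ pr) y) (hmem v)
    rw [add_sub_cancel] at h
    exact h.symm
  · intro y hy
    have : pr y = 0 := Submodule.projectionOnto_apply_of_mem_right hW'.symm hy
    simp [this]

/-! ### The lifted linear matrix inequality -/

/-- The arrow matrix `[[t, zᵀ], [z, Y]]`. -/
def Arr (t : ℝ) (z : Fin m → ℝ) (Y : Matrix (Fin m) (Fin m) ℝ) :
    Matrix (Unit ⊕ Fin m) (Unit ⊕ Fin m) ℝ :=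
  Matrix.fromBlocks (Matrix.of fun _ _ => t) (Matrix.of fun _ j => z j) (Matrix.of fun i _ => z i) Y

theorem Arr_quad (t : ℝ) (z : Fin m → ℝ) (Y : Matrix (Fin m) (Fin m) ℝ)
    (w : Unit ⊕ Fin m → ℝ) :
    qv (Arr t z Y) w =
      t * w (Sum.inl ()) ^ 2 + 2 * w (Sum.inl ()) * (z ⬝ᵥ fun i => w (Sum.inr i))
        + qv Y (fun i => w (Sum.inr i)) := by
  have h2 : (∑ i, w (Sum.inr i) * (z i * w (Sum.inl ())))
      = w (Sum.inl ()) * (z ⬝ᵥ fun i => w (Sum.inr i)) := by
    simp only [dotProduct, Finset.mul_sum]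
    exact Finset.sum_congr rfl fun i _ => by ring
  unfold Arr qv
  simp only [dotProduct, mulVec, Fintype.sum_sum_type, Matrix.fromBlocks_apply₁₁,
    Matrix.fromBlocks_apply₁₂, Matrix.fromBlocks_apply₂₁, Matrix.fromBlocks_apply₂₂,
    Matrix.of_apply, Finset.univ_unique, Finset.sum_singleton, PUnit.default_eq_unit, mul_add,
    Finset.sum_add_distrib]
  simp only [dotProduct] at h2
  rw [h2]
  ring

theorem Arr_isSymm (t : ℝ) (z : Fin m → ℝ) (Y : Matrix (Fin m) (Fin m) ℝ) (hY : Y.IsSymm) :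
    (Arr t z Y).IsSymm := by
  unfold Arr
  apply Matrix.IsSymm.fromBlocks
  · rfl
  · rfl
  · exact hY

theorem fromBlocks_psd {ι κ : Type*} [Fintype ι] [Fintype κ] {A : Matrix ι ι ℝ} {D : Matrix κ κ ℝ} :
    (Matrix.fromBlocks A 0 0 D).PosSemidef ↔ A.PosSemidef ∧ D.PosSemidef := by
  constructor
  · intro h
    have h1 : (Matrix.fromBlocks A 0 0 D).submatrix (Sum.inl : ι → ι ⊕ κ) Sum.inl = A := by
      ext i j; simp
    have h2 : (Matrix.fromBlocks A 0 0 D).submatrix (Sum.inr : κ → ι ⊕ κ) Sum.inr = D := by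
      ext i j; simp
    exact ⟨h1 ▸ h.submatrix (Sum.inl : ι → ι ⊕ κ), h2 ▸ h.submatrix (Sum.inr : κ → ι ⊕ κ)⟩
  · rintro ⟨hA, hD⟩
    refine PosSemidef.of_dotProduct_mulVec_nonneg ?_ ?_
    · have h1 : Aᴴ = A := hA.1
      have h2 : Dᴴ = D := hD.1
      rw [Matrix.IsHermitian, Matrix.fromBlocks_conjTranspose, h1, h2]
      simp
    · intro w
      have h1 := hA.dotProduct_mulVec_nonneg (fun i => w (Sum.inl i))
      have h2 := hD.dotProduct_mulVec_nonneg (fun i => w (Sum.inr i))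
      simp only [star_trivial] at h1 h2 ⊢
      have : w ⬝ᵥ (Matrix.fromBlocks A 0 0 D *ᵥ w)
          = (fun i => w (Sum.inl i)) ⬝ᵥ (A *ᵥ fun i => w (Sum.inl i))
            + (fun i => w (Sum.inr i)) ⬝ᵥ (D *ᵥ fun i => w (Sum.inr i)) := by
        simp only [dotProduct, mulVec, Fintype.sum_sum_type, Matrix.fromBlocks_apply₁₁,
          Matrix.fromBlocks_apply₁₂, Matrix.fromBlocks_apply₂₁, Matrix.fromBlocks_apply₂₂,
          Matrix.zero_apply, zero_mul, Finset.sum_const_zero, add_zero, zero_add]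
      rw [this]
      exact add_nonneg h1 h2

/-- Consequences of positive semidefiniteness of the arrow matrix. -/
theorem Arr_facts {t : ℝ} {z : Fin m → ℝ} {Y : Matrix (Fin m) (Fin m) ℝ}
    (h : (Arr t z Y).PosSemidef) :
    0 ≤ t ∧ Y.PosSemidef ∧ (t = 0 → z = 0) ∧
      (0 < t → ∀ w : Fin m → ℝ, (z ⬝ᵥ w) ^ 2 ≤ t * qv Y w) := by
  have hq : ∀ w, 0 ≤ qv (Arr t z Y) w := fun w => by
    have := h.dotProduct_mulVec_nonneg w
    simpa [qv] using this
  have hq' : ∀ (α : ℝ) (β : Fin m → ℝ), 0 ≤ t * α ^ 2 + 2 * α * (z ⬝ᵥ β) + qv Y β := by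
    intro α β
    have := hq (Sum.elim (fun _ => α) β)
    rw [Arr_quad] at this
    simpa using this
  have ht : 0 ≤ t := by
    have := hq' 1 0
    simpa [qv] using this
  have hYq : ∀ β, 0 ≤ qv Y β := fun β => by
    have := hq' 0 β
    simpa using this
  have hY : Y.PosSemidef := by
    have h2 : (Arr t z Y).submatrix (Sum.inr : Fin m → Unit ⊕ Fin m) Sum.inr = Y := by
      ext i j; simp [Arr]
    exact h2 ▸ h.submatrix (Sum.inr : Fin m → Unit ⊕ Fin m)
  refine ⟨ht, hY, ?_, ?_⟩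
  · intro h0
    subst h0
    have hz : ∀ β, z ⬝ᵥ β = 0 := by
      intro β
      by_contra hne
      have h1 := hq' (-(qv Y β + 1) / (2 * (z ⬝ᵥ β))) β
      have h2 : 2 * (-(qv Y β + 1) / (2 * (z ⬝ᵥ β))) * (z ⬝ᵥ β) = -(qv Y β + 1) := by
        field_simp
      rw [h2] at h1
      simp only [zero_mul, zero_add] at h1
      linarith
    have := hz z
    exact dotProduct_self_eq_zero.mp this
  · intro htpos w
    have h1 := hq' (-(z ⬝ᵥ w) / t) w
    have h2 : t * (-(z ⬝ᵥ w) / t) ^ 2 + 2 * (-(z ⬝ᵥ w) / t) * (z ⬝ᵥ w) = -(z ⬝ᵥ w) ^ 2 / t := by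
      field_simp
      ring
    rw [h2] at h1
    have h3 : (z ⬝ᵥ w) ^ 2 / t ≤ qv Y w := by
      have : -(z ⬝ᵥ w) ^ 2 / t = -((z ⬝ᵥ w) ^ 2 / t) := by ring
      linarith
    rw [div_le_iff₀ htpos] at h3
    linarith

/-- `Y = (1/t) z zᵀ`: the arrow matrix is positive semidefinite. -/
theorem Arr_rankOne {t : ℝ} (ht : 0 < t) (z : Fin m → ℝ) :
    (Arr t z (Matrix.of fun i j => t⁻¹ * (z i * z j))).PosSemidef := by
  refine PosSemidef.of_dotProduct_mulVec_nonneg ?_ ?_
  · rw [Matrix.IsHermitian, Matrix.conjTranspose_eq_transpose_of_trivial]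
    apply Arr_isSymm
    ext i j
    simp [Matrix.transpose_apply, mul_comm]
  · intro w
    have := Arr_quad t z (Matrix.of fun i j => t⁻¹ * (z i * z j)) w
    simp only [star_trivial]
    change 0 ≤ qv _ _
    rw [this]
    have hq : qv (Matrix.of fun i j => t⁻¹ * (z i * z j)) (fun i => w (Sum.inr i))
        = t⁻¹ * (z ⬝ᵥ fun i => w (Sum.inr i)) ^ 2 := by
      simp only [qv, dotProduct, mulVec, Matrix.of_apply, pow_two, Finset.sum_mul, Finset.mul_sum]
      rw [Finset.sum_comm]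
      refine Finset.sum_congr rfl fun i _ => Finset.sum_congr rfl fun j _ => ?_
      ring
    rw [hq]
    have h4 : t * w (Sum.inl ()) ^ 2 + 2 * w (Sum.inl ()) * (z ⬝ᵥ fun i => w (Sum.inr i))
        + t⁻¹ * (z ⬝ᵥ fun i => w (Sum.inr i)) ^ 2
        = t⁻¹ * (t * w (Sum.inl ()) + (z ⬝ᵥ fun i => w (Sum.inr i))) ^ 2 := by
      field_simp
      ring
    rw [h4]
    positivity

end Vale.Agent.Lib.P256
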