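import Mathlib

/-!
# Hyperbolic polynomials, hyperbolicity cones, spectrahedral shadows

Definitions follow the problem statement of P256.
-/

namespace Vale.Agent.Lib.P256

open Matrix MvPolynomial

/-- `p` is homogeneous, `p e > 0`, and for every `x` all complex roots of `t ↦ p (t e - x)` are
real: hyperbolicity of `p` with respect to `e`. -/
def IsHyperbolic {n : ℕ} (p : MvPolynomial (Fin n) ℝ) (e : Fin n → ℝ) : Prop :=
  (∃ d, p.IsHomogeneous d) ∧ 0 < eval e p ∧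
    ∀ (x : Fin n → ℝ) (z : ℂ),
      aeval (fun i => z * ((e i : ℝ) : ℂ) - ((x i : ℝ) : ℂ)) p = 0 → z.im = 0

/-- The closed hyperbolicity cone `K(p,e)`: every root of `t ↦ p (t e - x)` is nonnegative.
(For hyperbolic `p` all roots are real.) -/
def hypCone {n : ℕ} (p : MvPolynomial (Fin n) ℝ) (e : Fin n → ℝ) : Set (Fin n → ℝ) :=
  {x | ∀ t : ℝ, eval (fun i => t * e i - x i) p = 0 → 0 ≤ t}

/-- A spectrahedral shadow: a set
`{x | ∃ u, A₀ + ∑ x i • A i + ∑ u j • B j ⪰ 0}` with real symmetric matrices of one finite size. -/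
def IsSpectrahedralShadow {n : ℕ} (S : Set (Fin n → ℝ)) : Prop :=
  ∃ (M a : ℕ) (A₀ : Matrix (Fin M) (Fin M) ℝ) (A : Fin n → Matrix (Fin M) (Fin M) ℝ)
    (B : Fin a → Matrix (Fin M) (Fin M) ℝ),
    A₀.IsSymm ∧ (∀ i, (A i).IsSymm) ∧ (∀ j, (B j).IsSymm) ∧
      S = {x | ∃ u : Fin a → ℝ, (A₀ + ∑ i, x i • A i + ∑ j, u j • B j).PosSemidef}

variable {m N : ℕ}

/-- The linear symmetric matrix `L(y) = ∑ y i • L i`. -/
noncomputable def Lmat (L : Fin m → Matrix (Fin N) (Fin N) ℝ) (y : Fin m → ℝ) :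
    Matrix (Fin N) (Fin N) ℝ := ∑ i, y i • L i

/-- The quadratic matrix form `A(y) = ∑ y i * y j • B i j`. -/
noncomputable def Amat (B : Fin m → Fin m → Matrix (Fin N) (Fin N) ℝ) (y : Fin m → ℝ) :
    Matrix (Fin N) (Fin N) ℝ := ∑ i, ∑ j, (y i * y j) • B i j

/-- The polynomial `det (t² I - t L(y) - A(y))` in the variables `t = X 0`, `y i = X i.succ`. -/
noncomputable def pencilPoly (L : Fin m → Matrix (Fin N) (Fin N) ℝ)
    (B : Fin m → Fin m → Matrix (Fin N) (Fin N) ℝ) : MvPolynomial (Fin (m + 1)) ℝ :=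
  Matrix.det (Matrix.of fun a b : Fin N =>
    (if a = b then (X 0 : MvPolynomial (Fin (m + 1)) ℝ) ^ 2 else 0)
      - X 0 * ∑ i : Fin m, X i.succ * C (L i a b)
      - ∑ i : Fin m, ∑ j : Fin m, X i.succ * X j.succ * C (B i j a b))

/-- The direction `e = (1, 0, ..., 0)`. -/
def eDir (m : ℕ) : Fin (m + 1) → ℝ := Fin.cons 1 0

end Vale.Agent.Lib.P256
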