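import Vale.Agent.Lib.P256.Cone

/-!
# `K(p,e)` as a projection of a spectrahedron
-/

namespace Vale.Agent.Lib.P256

open Matrix MvPolynomial

variable {m N : ℕ}

theorem Lmat_neg (L : Fin m → Matrix (Fin N) (Fin N) ℝ) (y : Fin m → ℝ) :
    Lmat L (fun i => - y i) = - Lmat L y := by
  simp [Lmat, Finset.sum_neg_distrib]

theorem Amat_neg (B : Fin m → Fin m → Matrix (Fin N) (Fin N) ℝ) (y : Fin m → ℝ) :
    Amat B (fun i => - y i) = Amat B y := by
  simp [Amat]

theorem Lmat_isSymm (L : Fin m → Matrix (Fin N) (Fin N) ℝ) (hL : ∀ i, (L i).IsSymm)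
    (y : Fin m → ℝ) : (Lmat L y).IsSymm := by
  have : (Lmat L y)ᵀ = Lmat L y := by
    simp only [Lmat, Matrix.transpose_sum, Matrix.transpose_smul]
    exact Finset.sum_congr rfl fun i _ => by rw [(hL i).eq]
  exact this

theorem Aof_isSymm (B : Fin m → Fin m → Matrix (Fin N) (Fin N) ℝ) (hB : ∀ i j, (B i j).IsSymm)
    (Y : Matrix (Fin m) (Fin m) ℝ) : (Aof B Y).IsSymm := by
  have : (Aof B Y)ᵀ = Aof B Y := by
    simp only [Aof, Matrix.transpose_sum, Matrix.transpose_smul]
    exact Finset.sum_congr rfl fun i _ => Finset.sum_congr rfl fun j _ => by rw [(hB i j).eq]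
  exact this

theorem qv_nonneg_of_unit {n : Type*} [Fintype n] (M : Matrix n n ℝ)
    (h : ∀ v : n → ℝ, v ⬝ᵥ v = 1 → 0 ≤ qv M v) (v : n → ℝ) : 0 ≤ qv M v := by
  by_cases hv : v ⬝ᵥ v = 0
  · have hv0' : v = 0 := dotProduct_self_eq_zero.mp hv
    simp [qv, hv0']
  · have hpos : 0 < v ⬝ᵥ v := lt_of_le_of_ne (by
      simp only [dotProduct]; exact Finset.sum_nonneg fun j _ => mul_self_nonneg _) (Ne.symm hv)
    set c := Real.sqrt (v ⬝ᵥ v) with hc
    have hc2 : c ^ 2 = v ⬝ᵥ v := Real.sq_sqrt hpos.le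
    have hcpos : 0 < c := Real.sqrt_pos.mpr hpos
    have hw : (c⁻¹ • v) ⬝ᵥ (c⁻¹ • v) = 1 := by
      rw [smul_dotProduct, dotProduct_smul, smul_eq_mul, smul_eq_mul, ← hc2]
      field_simp
    have h1 := h _ hw
    rw [qv_smul] at h1
    have h2 : 0 < (c⁻¹) ^ 2 := by positivity
    exact nonneg_of_mul_nonneg_right h1 h2

/-- symmetrisation of the lift variables -/
noncomputable def Ysym (u : Fin m × Fin m → ℝ) : Matrix (Fin m) (Fin m) ℝ :=
  Matrix.of fun i j => (u (i, j) + u (j, i)) / 2

/-- The block `t I - L(y) - A[Y]`. -/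
noncomputable def Pen (L : Fin m → Matrix (Fin N) (Fin N) ℝ)
    (B : Fin m → Fin m → Matrix (Fin N) (Fin N) ℝ) (x : Fin (m + 1) → ℝ)
    (Y : Matrix (Fin m) (Fin m) ℝ) : Matrix (Fin N) (Fin N) ℝ :=
  (x 0) • (1 : Matrix (Fin N) (Fin N) ℝ) - Lmat L (fun i => x i.succ) - Aof B Y

/-- The lifted linear matrix inequality (as a function of `(x, u)`). -/
noncomputable def LMI (P : (Fin m → ℝ) →ₗ[ℝ] (Fin m → ℝ))
    (L : Fin m → Matrix (Fin N) (Fin N) ℝ)
    (B : Fin m → Fin m → Matrix (Fin N) (Fin N) ℝ) (x : Fin (m + 1) → ℝ)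
    (u : Fin m × Fin m → ℝ) :
    Matrix ((Unit ⊕ Fin m) ⊕ Fin N) ((Unit ⊕ Fin m) ⊕ Fin N) ℝ :=
  Matrix.fromBlocks (Arr (x 0) (P (fun i => x i.succ)) (Ysym u)) 0 0 (Pen L B x (Ysym u))

theorem Ysym_isSymm (u : Fin m × Fin m → ℝ) : (Ysym u).IsSymm := by
  ext i j
  simp [Ysym, Matrix.transpose_apply, add_comm]

theorem Pen_isSymm (L : Fin m → Matrix (Fin N) (Fin N) ℝ)
    (B : Fin m → Fin m → Matrix (Fin N) (Fin N) ℝ) (hL : ∀ i, (L i).IsSymm)
    (hB : ∀ i j, (B i j).IsSymm) (x : Fin (m + 1) → ℝ) (Y : Matrix (Fin m) (Fin m) ℝ) :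
    (Pen L B x Y).IsSymm := by
  have h1 : (Lmat L (fun i => x i.succ))ᵀ = _ := Lmat_isSymm L hL _
  have h2 : (Aof B Y)ᵀ = _ := Aof_isSymm B hB Y
  have : (Pen L B x Y)ᵀ = Pen L B x Y := by
    simp only [Pen, transpose_sub, transpose_smul, transpose_one, h1, h2]
  exact this

theorem qv_Pen (L : Fin m → Matrix (Fin N) (Fin N) ℝ)
    (B : Fin m → Fin m → Matrix (Fin N) (Fin N) ℝ) (x : Fin (m + 1) → ℝ)
    (Y : Matrix (Fin m) (Fin m) ℝ) (v : Fin N → ℝ) :
    qv (Pen L B x Y) v = x 0 * (v ⬝ᵥ v) - qv (Lmat L (fun i => x i.succ)) v - qv (Aof B Y) v := by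
  simp only [qv, Pen, sub_mulVec, smul_mulVec, one_mulVec, dotProduct_sub, dotProduct_smul,
    smul_eq_mul]

theorem Pen_psd_iff (L : Fin m → Matrix (Fin N) (Fin N) ℝ)
    (B : Fin m → Fin m → Matrix (Fin N) (Fin N) ℝ) (hL : ∀ i, (L i).IsSymm)
    (hB : ∀ i j, (B i j).IsSymm) (x : Fin (m + 1) → ℝ) (Y : Matrix (Fin m) (Fin m) ℝ)
    (h : ∀ v : Fin N → ℝ, v ⬝ᵥ v = 1 → 0 ≤ qv (Pen L B x Y) v) : (Pen L B x Y).PosSemidef := by
  refine PosSemidef.of_dotProduct_mulVec_nonneg ?_ ?_
  · rw [Matrix.IsHermitian, Matrix.conjTranspose_eq_transpose_of_trivial]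
    exact Pen_isSymm L B hL hB x Y
  · intro v
    simpa [qv] using qv_nonneg_of_unit _ h v

/-- Evaluation along `t e - x`. -/
theorem eval_along (L : Fin m → Matrix (Fin N) (Fin N) ℝ)
    (B : Fin m → Fin m → Matrix (Fin N) (Fin N) ℝ) (x : Fin (m + 1) → ℝ) (τ : ℝ) :
    eval (fun i => τ * eDir m i - x i) (pencilPoly L B) =
      (((τ - x 0) ^ 2) • (1 : Matrix (Fin N) (Fin N) ℝ) + (τ - x 0) • Lmat L (fun i => x i.succ)
        - Amat B (fun i => x i.succ)).det := by
  rw [eval_pencilPoly]
  congr 1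
  have h0 : τ * eDir m 0 - x 0 = τ - x 0 := by simp [eDir]
  have hs : (fun i : Fin m => τ * eDir m i.succ - x i.succ) = fun i => - x i.succ := by
    funext i
    simp [eDir]
  simp only [Mreal, h0, hs, Lmat_neg, Amat_neg, smul_neg, sub_neg_eq_add]

/-- The cone of the pencil polynomial is the projection of the lifted spectrahedron. -/
theorem cone_eq (hN : 0 < N) (L : Fin m → Matrix (Fin N) (Fin N) ℝ)
    (B : Fin m → Fin m → Matrix (Fin N) (Fin N) ℝ) (hL : ∀ i, (L i).IsSymm)
    (hB : ∀ i j, (B i j).IsSymm) (hA : ∀ y, (Amat B y).PosSemidef)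
    (P : (Fin m → ℝ) →ₗ[ℝ] (Fin m → ℝ))
    (hP1 : ∀ y v, qv (Amat B (P y)) v = qv (Amat B y) v) (hP2 : ∀ y, Rad B y → P y = 0) :
    hypCone (pencilPoly L B) (eDir m) = {x | ∃ u, (LMI P L B x u).PosSemidef} := by
  classical
  ext x
  set t := x 0 with ht
  set y : Fin m → ℝ := fun i => x i.succ with hy
  set L0 := Lmat L y with hL0
  set A0 := Amat B y with hA0
  have hL0s : L0.IsSymm := Lmat_isSymm L hL y
  have hb : ∀ v, 0 ≤ qv A0 v := qv_Amat_nonneg B hA y
  constructor
  · -- from the cone to the lift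
    intro hx
    obtain ⟨s, hsdet, hsmin⟩ := exists_min_root hN L0 A0 hL0s (hA y)
    have hroot : eval (fun i => (s + t) * eDir m i - x i) (pencilPoly L B) = 0 := by
      rw [eval_along]
      have : s + t - x 0 = s := by rw [ht]; ring
      rw [this]
      exact hsdet
    have hst : 0 ≤ s + t := hx _ hroot
    have hunit : ∀ v : Fin N → ℝ, v ⬝ᵥ v = 1 → - t ≤ sm (qv L0 v) (qv A0 v) := fun v hv => by
      have := hsmin v hv
      linarith
    have hv0 : ∃ v : Fin N → ℝ, v ⬝ᵥ v = 1 := ⟨Pi.single ⟨0, hN⟩ 1, by simp⟩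
    have ht0 : 0 ≤ t := by
      obtain ⟨v, hv⟩ := hv0
      have h1 := hunit v hv
      have h2 := sm_nonpos (qv L0 v) (qv A0 v) (hb v)
      linarith
    rcases ht0.lt_or_eq with htpos | htz
    · -- t > 0
      set z := P y with hz
      set Y : Matrix (Fin m) (Fin m) ℝ := Matrix.of fun i j => t⁻¹ * (z i * z j) with hY
      refine ⟨fun p => Y p.1 p.2, ?_⟩
      have hYsym : Ysym (fun p : Fin m × Fin m => Y p.1 p.2) = Y := by
        ext i j
        simp only [Ysym, hY, Matrix.of_apply]
        ring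
      unfold LMI
      rw [hYsym, fromBlocks_psd]
      refine ⟨Arr_rankOne htpos z, ?_⟩
      apply Pen_psd_iff L B hL hB
      intro v hv
      rw [qv_Pen, hv, ← ht, ← hy, ← hL0]
      have hq : qv (Aof B Y) v = t⁻¹ * qv A0 v := by
        have h1 : qv A0 v = qv (Amat B z) v := (hP1 y v).symm
        rw [qv_Aof, h1, qv_Amat, Finset.mul_sum]
        refine Finset.sum_congr rfl fun i _ => ?_
        rw [Finset.mul_sum]
        refine Finset.sum_congr rfl fun j _ => ?_
        simp only [hY, Matrix.of_apply]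
        ring
      rw [hq]
      have h2 := sm_quad_nonneg (qv L0 v) (qv A0 v) (-t) (hb v) (hunit v hv)
      have h3 : t * 1 - qv L0 v - t⁻¹ * qv A0 v
          = t⁻¹ * ((-t) ^ 2 + qv L0 v * (-t) - qv A0 v) := by
        field_simp
        ring
      rw [h3]
      exact mul_nonneg (inv_nonneg.mpr htpos.le) h2
    · -- t = 0
      have ht00 : t = 0 := htz.symm
      have hfacts : ∀ v : Fin N → ℝ, v ⬝ᵥ v = 1 → qv A0 v = 0 ∧ qv L0 v ≤ 0 := by
        intro v hv
        have h1 := hunit v hv
        rw [ht00, neg_zero] at h1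
        exact sm_zero_facts _ _ (hb v) h1
      have hrad : Rad B y := by
        intro v
        have h1 : 0 ≤ qv (-A0) v := by
          apply qv_nonneg_of_unit
          intro w hw
          have := (hfacts w hw).1
          simp only [qv, Matrix.neg_mulVec, dotProduct_neg] at this ⊢
          linarith
        have h2 : qv (-A0) v = - qv A0 v := by
          simp only [qv, Matrix.neg_mulVec, dotProduct_neg]
        have h3 := hb v
        rw [h2] at h1
        exact le_antisymm (by linarith) h3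
      have hPy : P y = 0 := hP2 y hrad
      refine ⟨0, ?_⟩
      have hY0 : Ysym (0 : Fin m × Fin m → ℝ) = 0 := by
        ext i j
        simp [Ysym]
      unfold LMI
      rw [hY0, fromBlocks_psd]
      constructor
      · rw [← hy, hPy, ← ht, ht00]
        refine PosSemidef.of_dotProduct_mulVec_nonneg ?_ ?_
        · rw [Matrix.IsHermitian, Matrix.conjTranspose_eq_transpose_of_trivial]
          exact Arr_isSymm _ _ _ (Matrix.isSymm_zero)
        · intro w
          have := Arr_quad (0 : ℝ) (0 : Fin m → ℝ) 0 w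
          simp only [star_trivial]
          change 0 ≤ qv _ _
          rw [this]
          simp [qv]
      · apply Pen_psd_iff L B hL hB
        intro v hv
        rw [qv_Pen, hv, ← ht, ← hy, ← hL0, ht00]
        have h1 : qv (Aof B (0 : Matrix (Fin m) (Fin m) ℝ)) v = 0 := by
          rw [qv_Aof]
          simp
        rw [h1]
        have := (hfacts v hv).2
        linarith
  · -- from the lift to the cone
    rintro ⟨u, hu⟩
    unfold LMI at hu
    rw [fromBlocks_psd] at hu
    obtain ⟨hArr, hPen⟩ := hu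
    set Y := Ysym u with hYdef
    set z := P y with hz
    obtain ⟨ht0, hYpsd, hz0, hzt⟩ := Arr_facts hArr
    intro τ hτ
    by_contra hneg
    have hτneg : τ < 0 := not_le.mp hneg
    rw [eval_along] at hτ
    rw [← ht, ← hy, ← hL0, ← hA0] at hτ
    set s := τ - t with hs
    obtain ⟨v, hv0, hv⟩ := Matrix.exists_mulVec_eq_zero_iff.mpr hτ
    have hcpos : 0 < v ⬝ᵥ v := by
      have h1 : 0 ≤ v ⬝ᵥ v := by
        simp only [dotProduct]; exact Finset.sum_nonneg fun j _ => mul_self_nonneg _
      have h2 : v ⬝ᵥ v ≠ 0 := fun h => hv0 (dotProduct_self_eq_zero.mp h)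
      exact lt_of_le_of_ne h1 (Ne.symm h2)
    set c := v ⬝ᵥ v with hc
    have heq : s ^ 2 * c + s * qv L0 v - qv A0 v = 0 := by
      have h1 := congrArg (fun w => v ⬝ᵥ w) hv
      simp only [sub_mulVec, add_mulVec, smul_mulVec, one_mulVec, dotProduct_sub, dotProduct_add,
        dotProduct_smul, smul_eq_mul, dotProduct_zero] at h1
      simpa [qv, hc] using h1
    have hPq : 0 ≤ t * c - qv L0 v - qv (Aof B Y) v := by
      have h1 := hPen.dotProduct_mulVec_nonneg v
      simp only [star_trivial] at h1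
      have h2 := qv_Pen L B x Y v
      rw [← ht, ← hy, ← hL0, ← hc] at h2
      rw [← h2]
      exact h1
    have hb0 := hb v
    have hslt : s < -t := by rw [hs]; linarith
    rcases ht0.lt_or_eq with htpos | htz
    · -- t > 0
      set Z : Matrix (Fin m) (Fin m) ℝ := Matrix.of fun i j => Y i j - t⁻¹ * (z i * z j) with hZ
      have hZpsd : Z.PosSemidef := by
        refine PosSemidef.of_dotProduct_mulVec_nonneg ?_ ?_
        · rw [Matrix.IsHermitian, Matrix.conjTranspose_eq_transpose_of_trivial]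
          ext i j
          have h1 : Y j i = Y i j := congrFun (congrFun (Ysym_isSymm u) i) j
          simp only [hZ, Matrix.transpose_apply, Matrix.of_apply, h1, mul_comm]
        · intro w
          simp only [star_trivial]
          have h1 := hzt htpos w
          have h2 : w ⬝ᵥ (Z *ᵥ w) = qv Y w - t⁻¹ * (z ⬝ᵥ w) ^ 2 := by
            simp only [qv, dotProduct, mulVec, hZ, Matrix.of_apply, pow_two, sub_mul, mul_sub,
              Finset.sum_sub_distrib, Finset.sum_mul, Finset.mul_sum]
            congr 1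
            rw [Finset.sum_comm]
            refine Finset.sum_congr rfl fun i _ => Finset.sum_congr rfl fun j _ => ?_
            ring
          rw [h2]
          have h3 : t⁻¹ * (z ⬝ᵥ w) ^ 2 ≤ qv Y w := by
            rw [inv_mul_le_iff₀ htpos]
            exact h1
          linarith
      have hβ : qv (Aof B Y) v = qv (Aof B Z) v + t⁻¹ * qv (Amat B z) v := by
        rw [qv_Aof, qv_Aof, qv_Amat, Finset.mul_sum, ← Finset.sum_add_distrib]
        refine Finset.sum_congr rfl fun i _ => ?_
        rw [Finset.mul_sum, ← Finset.sum_add_distrib]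
        refine Finset.sum_congr rfl fun j _ => ?_
        simp only [hZ, Matrix.of_apply]
        ring
      have hZq := qv_Aof_nonneg B hA Z hZpsd v
      have hzq : qv (Amat B z) v = qv A0 v := hP1 y v
      rw [hzq] at hβ
      -- the contradiction
      set a := qv L0 v
      set b := qv A0 v
      set r := - s with hr
      have hrt : t < r := by rw [hr]; linarith
      have hf : r ^ 2 * c - r * a - b = 0 := by
        have : s = - r := by rw [hr]; ring
        rw [this] at heq
        nlinarith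
      have hf2 : 0 ≤ t ^ 2 * c - t * a - b := by
        have h1 : 0 ≤ t * c - a - t⁻¹ * b := by
          have : qv (Aof B Y) v ≥ t⁻¹ * b := by rw [hβ]; linarith
          linarith
        have htt : t * t⁻¹ = 1 := mul_inv_cancel₀ (ne_of_gt htpos)
        have h2 : t * (t * c - a - t⁻¹ * b) = t ^ 2 * c - t * a - (t * t⁻¹) * b := by ring
        rw [htt, one_mul] at h2
        rw [← h2]
        exact mul_nonneg htpos.le h1
      have hkey : t * (r ^ 2 * c - r * a - b) - r * (t ^ 2 * c - t * a - b)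
          = (r - t) * (t * r * c + b) := by ring
      rw [hf, mul_zero, zero_sub] at hkey
      have hrpos : 0 < r := by linarith
      have hleft : - (r * (t ^ 2 * c - t * a - b)) ≤ 0 := by
        have := mul_nonneg hrpos.le hf2
        linarith
      have hright : 0 < (r - t) * (t * r * c + b) := by
        apply mul_pos (by linarith)
        have : 0 < t * r * c := by positivity
        linarith
      linarith
    · -- t = 0
      have ht00 : t = 0 := htz.symm
      have hz00 : z = 0 := hz0 ht00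
      have hb00 : qv A0 v = 0 := by
        have h1 : qv (Amat B z) v = qv A0 v := hP1 y v
        rw [← h1, hz00]
        simp [qv_Amat]
      have hβ := qv_Aof_nonneg B hA Y hYpsd v
      rw [ht00, zero_mul] at hPq
      have hs0 : s = τ := by rw [hs, ht00, sub_zero]
      rw [hb00, hs0] at heq
      have h1 : τ * (τ * c + qv L0 v) = 0 := by nlinarith
      have h2 : τ * c + qv L0 v = 0 := (mul_eq_zero.mp h1).resolve_left hτneg.ne
      have h3 : τ * c < 0 := mul_neg_of_neg_of_pos hτneg hcpos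
      linarith

/-- A spectrahedral shadow from a linear family of symmetric matrices indexed by general finite
types. -/
theorem shadow_of_linear {n : ℕ} {ι κ : Type} [Fintype ι] [Fintype κ] [DecidableEq ι]
    [DecidableEq κ]
    (Φ : ((Fin n → ℝ) × (κ → ℝ)) →ₗ[ℝ] Matrix ι ι ℝ) (hsym : ∀ p, (Φ p).IsSymm)
    (S : Set (Fin n → ℝ)) (hS : S = {x | ∃ u, (Φ (x, u)).PosSemidef}) :
    IsSpectrahedralShadow S := by
  classical
  set e := Fintype.equivFin ι
  set g := Fintype.equivFin κ
  refine ⟨Fintype.card ι, Fintype.card κ, 0,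
    fun i => (Φ (Pi.single i 1, 0)).submatrix e.symm e.symm,
    fun j => (Φ (0, Pi.single (g.symm j) 1)).submatrix e.symm e.symm,
    Matrix.isSymm_zero, fun i => (hsym _).submatrix _, fun j => (hsym _).submatrix _, ?_⟩
  have hlin : ∀ (x : Fin n → ℝ) (u : Fin (Fintype.card κ) → ℝ),
      (0 : Matrix (Fin (Fintype.card ι)) (Fin (Fintype.card ι)) ℝ)
        + ∑ i, x i • (Φ (Pi.single i 1, 0)).submatrix e.symm e.symm
        + ∑ j, u j • (Φ (0, Pi.single (g.symm j) 1)).submatrix e.symm e.symm
      = (Φ (x, u ∘ g)).submatrix e.symm e.symm := by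
    intro x u
    have hp : ((x, u ∘ g) : (Fin n → ℝ) × (κ → ℝ))
        = ∑ i, x i • ((Pi.single i 1, 0) : (Fin n → ℝ) × (κ → ℝ))
          + ∑ j, u j • ((0, Pi.single (g.symm j) 1) : (Fin n → ℝ) × (κ → ℝ)) := by
      ext i
      · simp [Prod.fst_sum, Finset.sum_apply, Pi.single_apply]
      · have : (∑ j, u j * (Pi.single (g.symm j) (1 : ℝ) : κ → ℝ) i) = u (g i) := by
          rw [Finset.sum_eq_single (g i)]
          · simp
          · intro b _ hb
            have : g.symm b ≠ i := fun h => hb (by rw [← h]; simp)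
            simp [Pi.single_apply, Ne.symm this, this]
          · simp
        simpa [Prod.snd_sum, Finset.sum_apply] using this.symm
    rw [hp, map_add, map_sum, map_sum]
    simp only [map_smul]
    ext a b
    simp [Matrix.sum_apply]
  rw [hS]
  ext x
  constructor
  · rintro ⟨u, hu⟩
    refine ⟨u ∘ g.symm, ?_⟩
    rw [hlin]
    have : (u ∘ g.symm) ∘ g = u := by
      funext i; simp
    rw [this]
    exact hu.submatrix _
  · rintro ⟨u, hu⟩
    refine ⟨u ∘ g, ?_⟩
    rw [hlin] at hu
    exact (Matrix.posSemidef_submatrix_equiv e.symm).mp hu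

end Vale.Agent.Lib.P256
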