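import Vale.Agent.Lib.P256.Lift

/-!
# Main theorem: `det (t² I - t L(y) - A(y))` with `A` a positive map
-/

namespace Vale.Agent.Lib.P256

open Matrix MvPolynomial

variable {m N : ℕ}

theorem pencil_isHomogeneous (L : Fin m → Matrix (Fin N) (Fin N) ℝ)
    (B : Fin m → Fin m → Matrix (Fin N) (Fin N) ℝ) :
    (pencilPoly L B).IsHomogeneous (2 * N) := by
  classical
  have hX0 : (X 0 : MvPolynomial (Fin (m + 1)) ℝ).IsHomogeneous 1 := isHomogeneous_X _ _
  have hXs : ∀ i : Fin m, (X i.succ : MvPolynomial (Fin (m + 1)) ℝ).IsHomogeneous 1 :=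
    fun i => isHomogeneous_X _ _
  have hentry : ∀ a b : Fin N, ((if a = b then (X 0 : MvPolynomial (Fin (m + 1)) ℝ) ^ 2 else 0)
      - X 0 * ∑ i : Fin m, X i.succ * C (L i a b)
      - ∑ i : Fin m, ∑ j : Fin m, X i.succ * X j.succ * C (B i j a b)).IsHomogeneous 2 := by
    intro a b
    refine ((?_ : IsHomogeneous _ 2).sub (?_ : IsHomogeneous _ 2)).sub ?_
    · by_cases h : a = b
      · simp only [h, if_true]
        have := hX0.pow 2
        simpa using this
      · simp only [h, if_false]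
        exact isHomogeneous_zero _ _ _
    · have h1 : (∑ i : Fin m, (X i.succ * C (L i a b) : MvPolynomial (Fin (m + 1)) ℝ)).IsHomogeneous 1 := by
        apply IsHomogeneous.sum
        intro i _
        have := (hXs i).mul (isHomogeneous_C (Fin (m + 1)) (L i a b))
        simpa using this
      simpa using hX0.mul h1
    · apply IsHomogeneous.sum
      intro i _
      apply IsHomogeneous.sum
      intro j _
      have := ((hXs i).mul (hXs j)).mul (isHomogeneous_C (Fin (m + 1)) (B i j a b))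
      simpa using this
  unfold pencilPoly
  rw [Matrix.det_apply]
  apply IsHomogeneous.sum
  intro σ _
  have hprod : (∏ i : Fin N, (Matrix.of fun a b : Fin N =>
      (if a = b then (X 0 : MvPolynomial (Fin (m + 1)) ℝ) ^ 2 else 0)
      - X 0 * ∑ i : Fin m, X i.succ * C (L i a b)
      - ∑ i : Fin m, ∑ j : Fin m, X i.succ * X j.succ * C (B i j a b)) (σ i) i).IsHomogeneous
      (∑ _i : Fin N, 2) := by
    apply IsHomogeneous.prod
    intro i _
    exact hentry _ _
  have hN2 : (∑ _i : Fin N, 2) = 2 * N := by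
    simp [mul_comm]
  rw [hN2] at hprod
  rcases Int.units_eq_one_or (Equiv.Perm.sign σ) with h | h
  · rw [h, one_smul]; exact hprod
  · rw [h, Units.neg_smul, one_smul]; exact hprod.neg

theorem pencil_eval_e (L : Fin m → Matrix (Fin N) (Fin N) ℝ)
    (B : Fin m → Fin m → Matrix (Fin N) (Fin N) ℝ) :
    eval (eDir m) (pencilPoly L B) = 1 := by
  rw [eval_pencilPoly]
  have h0 : eDir m 0 = 1 := rfl
  have hs : (fun i : Fin m => eDir m i.succ) = 0 := by
    funext i; rfl
  rw [h0, hs]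
  simp [Mreal, Lmat, Amat]

/-! ### Linearity of the lift -/

theorem Arr_add (t t' : ℝ) (z z' : Fin m → ℝ) (Y Y' : Matrix (Fin m) (Fin m) ℝ) :
    Arr (t + t') (z + z') (Y + Y') = Arr t z Y + Arr t' z' Y' := by
  ext (i | i) (j | j) <;> simp [Arr]

theorem Arr_smul (c t : ℝ) (z : Fin m → ℝ) (Y : Matrix (Fin m) (Fin m) ℝ) :
    Arr (c * t) (c • z) (c • Y) = c • Arr t z Y := by
  ext (i | i) (j | j) <;> simp [Arr]

theorem Ysym_add (u u' : Fin m × Fin m → ℝ) : Ysym (u + u') = Ysym u + Ysym u' := by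
  ext i j
  simp only [Ysym, Matrix.of_apply, Pi.add_apply, Matrix.add_apply]
  ring

theorem Ysym_smul (c : ℝ) (u : Fin m × Fin m → ℝ) : Ysym (c • u) = c • Ysym u := by
  ext i j
  simp only [Ysym, Matrix.of_apply, Pi.smul_apply, Matrix.smul_apply, smul_eq_mul]
  ring

theorem Lmat_add (L : Fin m → Matrix (Fin N) (Fin N) ℝ) (a b : Fin m → ℝ) :
    Lmat L (a + b) = Lmat L a + Lmat L b := by
  simp only [Lmat, Pi.add_apply, add_smul, Finset.sum_add_distrib]

theorem Lmat_smul (L : Fin m → Matrix (Fin N) (Fin N) ℝ) (c : ℝ) (a : Fin m → ℝ) :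
    Lmat L (c • a) = c • Lmat L a := by
  simp only [Lmat, Pi.smul_apply, smul_eq_mul, mul_smul, Finset.smul_sum]

theorem Aof_add (B : Fin m → Fin m → Matrix (Fin N) (Fin N) ℝ) (Y Y' : Matrix (Fin m) (Fin m) ℝ) :
    Aof B (Y + Y') = Aof B Y + Aof B Y' := by
  simp only [Aof, Matrix.add_apply, add_smul, Finset.sum_add_distrib]

theorem Aof_smul (B : Fin m → Fin m → Matrix (Fin N) (Fin N) ℝ) (c : ℝ)
    (Y : Matrix (Fin m) (Fin m) ℝ) :
    Aof B (c • Y) = c • Aof B Y := by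
  simp only [Aof, Matrix.smul_apply, smul_eq_mul, mul_smul, Finset.smul_sum]

theorem succ_add (x x' : Fin (m + 1) → ℝ) :
    (fun i : Fin m => (x + x') i.succ) = (fun i : Fin m => x i.succ) + (fun i : Fin m => x' i.succ) :=
  rfl

theorem succ_smul' (c : ℝ) (x : Fin (m + 1) → ℝ) :
    (fun i : Fin m => (c • x) i.succ) = c • (fun i : Fin m => x i.succ) :=
  rfl

theorem Pen_add (L : Fin m → Matrix (Fin N) (Fin N) ℝ)
    (B : Fin m → Fin m → Matrix (Fin N) (Fin N) ℝ) (x x' : Fin (m + 1) → ℝ)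
    (Y Y' : Matrix (Fin m) (Fin m) ℝ) :
    Pen L B (x + x') (Y + Y') = Pen L B x Y + Pen L B x' Y' := by
  unfold Pen
  rw [succ_add, Lmat_add, Aof_add, Pi.add_apply, add_smul]
  abel

theorem Pen_smul (L : Fin m → Matrix (Fin N) (Fin N) ℝ)
    (B : Fin m → Fin m → Matrix (Fin N) (Fin N) ℝ) (c : ℝ) (x : Fin (m + 1) → ℝ)
    (Y : Matrix (Fin m) (Fin m) ℝ) :
    Pen L B (c • x) (c • Y) = c • Pen L B x Y := by
  unfold Pen
  rw [succ_smul', Lmat_smul, Aof_smul, Pi.smul_apply, smul_eq_mul, mul_smul, smul_sub, smul_sub]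

/-- The lifted pencil as a linear map. -/
noncomputable def LMIlin (P : (Fin m → ℝ) →ₗ[ℝ] (Fin m → ℝ))
    (L : Fin m → Matrix (Fin N) (Fin N) ℝ)
    (B : Fin m → Fin m → Matrix (Fin N) (Fin N) ℝ) :
    ((Fin (m + 1) → ℝ) × (Fin m × Fin m → ℝ)) →ₗ[ℝ]
      Matrix ((Unit ⊕ Fin m) ⊕ Fin N) ((Unit ⊕ Fin m) ⊕ Fin N) ℝ where
  toFun p := LMI P L B p.1 p.2
  map_add' p q := by
    unfold LMI
    rw [Prod.fst_add, Prod.snd_add, Ysym_add, Pen_add, succ_add, map_add, Pi.add_apply, Arr_add,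
      Matrix.fromBlocks_add, add_zero, add_zero]
  map_smul' c p := by
    unfold LMI
    rw [Prod.smul_fst, Prod.smul_snd, Ysym_smul, Pen_smul, succ_smul', map_smul, Pi.smul_apply,
      smul_eq_mul, Arr_smul, RingHom.id_apply, Matrix.fromBlocks_smul, smul_zero, smul_zero]

/-- **Main theorem.** -/
theorem pencil_main (hN : 0 < N) (L : Fin m → Matrix (Fin N) (Fin N) ℝ)
    (B : Fin m → Fin m → Matrix (Fin N) (Fin N) ℝ) (hL : ∀ i, (L i).IsSymm)
    (hB : ∀ i j, (B i j).IsSymm) (hA : ∀ y, (Amat B y).PosSemidef) :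
    IsHyperbolic (pencilPoly L B) (eDir m) ∧
      IsSpectrahedralShadow (hypCone (pencilPoly L B) (eDir m)) := by
  classical
  refine ⟨⟨⟨_, pencil_isHomogeneous L B⟩, ?_, ?_⟩, ?_⟩
  · rw [pencil_eval_e]; exact one_pos
  · intro x z hz
    exact pencil_roots_real L B hL hB hA x z hz
  · obtain ⟨P, hP1, hP2⟩ := exists_proj B hA
    refine shadow_of_linear (LMIlin P L B) ?_ _ (cone_eq hN L B hL hB hA P hP1 hP2)
    intro p
    exact Matrix.IsSymm.fromBlocks (Arr_isSymm _ _ _ (Ysym_isSymm _)) (by simp)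
      (Pen_isSymm L B hL hB _ _)

end Vale.Agent.Lib.P256
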