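import Vale.Agent.Lib.P256.Defs

/-!
# Real-rootedness of `det (t² I - t L(y) - A(y))`
-/

namespace Vale.Agent.Lib.P256

open Matrix MvPolynomial

variable {m N : ℕ}

/-- The real matrix `t² I - t L(y) - A(y)`. -/
noncomputable def Mreal (L : Fin m → Matrix (Fin N) (Fin N) ℝ)
    (B : Fin m → Fin m → Matrix (Fin N) (Fin N) ℝ) (t : ℝ) (y : Fin m → ℝ) :
    Matrix (Fin N) (Fin N) ℝ :=
  (t ^ 2) • (1 : Matrix (Fin N) (Fin N) ℝ) - t • Lmat L y - Amat B y

/-- Evaluation of the pencil polynomial in a commutative `ℝ`-algebra. -/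
theorem aeval_pencilPoly {R : Type*} [CommRing R] [Algebra ℝ R]
    (L : Fin m → Matrix (Fin N) (Fin N) ℝ)
    (B : Fin m → Fin m → Matrix (Fin N) (Fin N) ℝ) (f : Fin (m + 1) → R) :
    aeval f (pencilPoly L B) = Matrix.det (Matrix.of fun a b : Fin N =>
      (if a = b then (f 0) ^ 2 else 0)
        - f 0 * ∑ i : Fin m, f i.succ * algebraMap ℝ R (L i a b)
        - ∑ i : Fin m, ∑ j : Fin m, f i.succ * f j.succ * algebraMap ℝ R (B i j a b)) := by
  unfold pencilPoly
  rw [AlgHom.map_det]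
  congr 1
  ext a b
  simp only [AlgHom.mapMatrix_apply, Matrix.map_apply, Matrix.of_apply, map_sub, map_mul, map_sum,
    aeval_X, aeval_C]
  by_cases h : a = b <;> simp [h]

/-- Evaluation of the pencil polynomial at a real point. -/
theorem eval_pencilPoly (L : Fin m → Matrix (Fin N) (Fin N) ℝ)
    (B : Fin m → Fin m → Matrix (Fin N) (Fin N) ℝ) (w : Fin (m + 1) → ℝ) :
    eval w (pencilPoly L B) = (Mreal L B (w 0) (fun i => w i.succ)).det := by
  have h : eval w (pencilPoly L B) = aeval w (pencilPoly L B) := by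
    rw [MvPolynomial.aeval_eq_eval]
  rw [h, aeval_pencilPoly]
  congr 1
  ext a b
  simp only [Matrix.of_apply, Mreal, Lmat, Amat, Matrix.sub_apply, Matrix.smul_apply,
    Matrix.sum_apply, smul_eq_mul, Matrix.one_apply, Algebra.algebraMap_self, RingHom.id_apply]
  by_cases hab : a = b <;> simp [hab]

/-- Real and imaginary parts of a Hermitian form of a real symmetric matrix. -/
theorem star_dot_map_mulVec {S : Matrix (Fin N) (Fin N) ℝ} (hS : S.IsSymm) (v : Fin N → ℂ) :
    star v ⬝ᵥ ((S.map (algebraMap ℝ ℂ)) *ᵥ v) =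
      (((fun i => (v i).re) ⬝ᵥ (S *ᵥ fun i => (v i).re)
        + (fun i => (v i).im) ⬝ᵥ (S *ᵥ fun i => (v i).im) : ℝ) : ℂ) := by
  have hsym : ∀ i j, S i j = S j i := fun i j => by
    have := congrFun (congrFun hS i) j
    simpa [Matrix.transpose_apply] using this.symm
  have key : (∑ i, ∑ j, S i j * ((v i).re * (v j).im - (v i).im * (v j).re)) = 0 := by
    have h1 : (∑ i, ∑ j, S i j * ((v i).re * (v j).im))
        = ∑ i, ∑ j, S i j * ((v i).im * (v j).re) := by
      rw [Finset.sum_comm]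
      refine Finset.sum_congr rfl fun i _ => Finset.sum_congr rfl fun j _ => ?_
      rw [hsym j i]; ring
    simp only [mul_sub, Finset.sum_sub_distrib, h1, sub_self]
  have hterm : ∀ i j, star (v i) * (algebraMap ℝ ℂ (S i j) * v j) =
      ((S i j * ((v i).re * (v j).re + (v i).im * (v j).im) : ℝ) : ℂ)
        + Complex.I * ((S i j * ((v i).re * (v j).im - (v i).im * (v j).re) : ℝ) : ℂ) := by
    intro i j
    apply Complex.ext
    · simp
      ring
    · simp
      ring
  have hL : star v ⬝ᵥ ((S.map (algebraMap ℝ ℂ)) *ᵥ v) =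
      ∑ i, ∑ j, star (v i) * (algebraMap ℝ ℂ (S i j) * v j) := by
    simp [dotProduct, mulVec, Finset.mul_sum]
  rw [hL]
  simp only [hterm, Finset.sum_add_distrib, ← Finset.mul_sum]
  have h0 : (∑ i, ∑ j, ((S i j * ((v i).re * (v j).im - (v i).im * (v j).re) : ℝ) : ℂ)) = 0 := by
    have : ((∑ i, ∑ j, S i j * ((v i).re * (v j).im - (v i).im * (v j).re) : ℝ) : ℂ) = 0 := by
      rw [key]; simp
    simpa only [Complex.ofReal_sum] using this
  rw [h0, mul_zero, add_zero]
  have hR : ∀ (f g : Fin N → ℝ), f ⬝ᵥ (S *ᵥ g) = ∑ i, ∑ j, S i j * (f i * g j) := by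
    intro f g
    simp only [dotProduct, mulVec, Finset.mul_sum]
    refine Finset.sum_congr rfl fun i _ => Finset.sum_congr rfl fun j _ => ?_
    ring
  rw [hR, hR]
  rw [← Finset.sum_add_distrib]
  simp only [← Finset.sum_add_distrib, ← mul_add]
  simp only [Complex.ofReal_sum]

/-- All complex roots of `t ↦ p (t e - x)` are real. -/
theorem pencil_roots_real (L : Fin m → Matrix (Fin N) (Fin N) ℝ)
    (B : Fin m → Fin m → Matrix (Fin N) (Fin N) ℝ)
    (hL : ∀ i, (L i).IsSymm) (hB : ∀ i j, (B i j).IsSymm)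
    (hA : ∀ y, (Amat B y).PosSemidef) (x : Fin (m + 1) → ℝ) (z : ℂ)
    (hz : aeval (fun i => z * ((eDir m i : ℝ) : ℂ) - ((x i : ℝ) : ℂ)) (pencilPoly L B) = 0) :
    z.im = 0 := by
  classical
  set y : Fin m → ℝ := fun i => x i.succ with hy
  set w : ℂ := z - (x 0 : ℂ) with hw
  set L0 : Matrix (Fin N) (Fin N) ℝ := Lmat L y with hL0
  set A0 : Matrix (Fin N) (Fin N) ℝ := Amat B y with hA0
  have hL0s : L0.IsSymm := by
    have : L0ᵀ = L0 := by
      simp only [hL0, Lmat, Matrix.transpose_sum, Matrix.transpose_smul]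
      exact Finset.sum_congr rfl fun i _ => by rw [(hL i).eq]
    exact this
  have hA0s : A0.IsSymm := by
    have h := (hA y).1
    have : A0ᵀ = A0 := by
      rw [← Matrix.conjTranspose_eq_transpose_of_trivial]
      exact h
    exact this
  -- the complex matrix
  set MC : Matrix (Fin N) (Fin N) ℂ :=
    (w ^ 2) • (1 : Matrix (Fin N) (Fin N) ℂ) + w • L0.map (algebraMap ℝ ℂ)
      - A0.map (algebraMap ℝ ℂ) with hMC
  have hf0 : z * ((eDir m 0 : ℝ) : ℂ) - ((x 0 : ℝ) : ℂ) = w := by simp [eDir, hw]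
  have hfs : ∀ i : Fin m, z * ((eDir m i.succ : ℝ) : ℂ) - ((x i.succ : ℝ) : ℂ) = -((y i : ℝ) : ℂ) := by
    intro i; simp [eDir, hy]
  have hdet : MC.det = 0 := by
    rw [aeval_pencilPoly] at hz
    simp only [hf0, hfs] at hz
    rw [← hz]
    congr 1
    ext a b
    have hs1 : (∑ i : Fin m, -((y i : ℝ) : ℂ) * algebraMap ℝ ℂ (L i a b))
        = -((L0 a b : ℝ) : ℂ) := by
      simp only [hL0, Lmat, Matrix.sum_apply, Matrix.smul_apply, smul_eq_mul, Complex.ofReal_sum,
        Complex.ofReal_mul, Complex.coe_algebraMap]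
      rw [← Finset.sum_neg_distrib]
      exact Finset.sum_congr rfl fun i _ => by ring
    have hs2 : (∑ i : Fin m, ∑ j : Fin m, -((y i : ℝ) : ℂ) * -((y j : ℝ) : ℂ)
          * algebraMap ℝ ℂ (B i j a b)) = ((A0 a b : ℝ) : ℂ) := by
      simp only [hA0, Amat, Matrix.sum_apply, Matrix.smul_apply, smul_eq_mul, Complex.ofReal_sum,
        Complex.ofReal_mul, Complex.coe_algebraMap]
      exact Finset.sum_congr rfl fun i _ => Finset.sum_congr rfl fun j _ => by ring
    simp only [Matrix.of_apply]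
    rw [hs1, hs2]
    simp only [hMC, Matrix.add_apply, Matrix.sub_apply,
      Matrix.smul_apply, Matrix.map_apply, Matrix.one_apply, smul_eq_mul, Complex.coe_algebraMap]
    by_cases hab : a = b
    · simp only [hab, if_true]
      ring
    · simp only [hab, if_false]
      ring
  obtain ⟨v, hv0, hv⟩ := Matrix.exists_mulVec_eq_zero_iff.mpr hdet
  -- quadratic equation
  have hq := congrArg (fun u => star v ⬝ᵥ u) hv
  simp only [dotProduct_zero] at hq
  have hexp : star v ⬝ᵥ (MC *ᵥ v) =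
      w ^ 2 * (star v ⬝ᵥ v) + w * (star v ⬝ᵥ (L0.map (algebraMap ℝ ℂ) *ᵥ v))
        - star v ⬝ᵥ (A0.map (algebraMap ℝ ℂ) *ᵥ v) := by
    simp only [hMC, Matrix.sub_mulVec, Matrix.add_mulVec, Matrix.smul_mulVec, Matrix.one_mulVec,
      dotProduct_sub, dotProduct_add, dotProduct_smul, smul_eq_mul]
  rw [hexp, star_dot_map_mulVec hL0s, star_dot_map_mulVec hA0s] at hq
  set pr : Fin N → ℝ := fun i => (v i).re with hpr
  set qi : Fin N → ℝ := fun i => (v i).im with hqi
  set a : ℝ := pr ⬝ᵥ (L0 *ᵥ pr) + qi ⬝ᵥ (L0 *ᵥ qi) with ha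
  set b : ℝ := pr ⬝ᵥ (A0 *ᵥ pr) + qi ⬝ᵥ (A0 *ᵥ qi) with hb
  have hbnn : 0 ≤ b := by
    have h1 := (hA y).dotProduct_mulVec_nonneg pr
    have h2 := (hA y).dotProduct_mulVec_nonneg qi
    simp only [star_trivial] at h1 h2
    exact add_nonneg h1 h2
  -- c = star v ⬝ᵥ v is real positive
  set c : ℝ := ∑ i, ((v i).re ^ 2 + (v i).im ^ 2) with hc
  have hcv : star v ⬝ᵥ v = (c : ℂ) := by
    simp only [dotProduct, Pi.star_apply, hc, Complex.ofReal_sum]
    refine Finset.sum_congr rfl fun i _ => ?_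
    have h1 : star (v i) * v i = ((Complex.normSq (v i) : ℝ) : ℂ) := by
      rw [Complex.normSq_eq_conj_mul_self]; rfl
    rw [h1, Complex.normSq_apply]
    congr 1
    ring
  have hcpos : 0 < c := by
    obtain ⟨i, hi⟩ := Function.ne_iff.mp hv0
    have hi' : 0 < (v i).re ^ 2 + (v i).im ^ 2 := by
      have : v i ≠ 0 := hi
      have h := Complex.normSq_pos.mpr this
      rw [Complex.normSq_apply] at h
      nlinarith
    have hle : (v i).re ^ 2 + (v i).im ^ 2 ≤ c :=
      Finset.single_le_sum (f := fun i => (v i).re ^ 2 + (v i).im ^ 2)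
        (fun j _ => by positivity) (Finset.mem_univ i)
    linarith
  rw [hcv] at hq
  have him := congrArg Complex.im hq
  have hre := congrArg Complex.re hq
  simp only [Complex.sub_im, Complex.add_im, Complex.mul_im, Complex.ofReal_im, Complex.ofReal_re,
    Complex.zero_im, pow_two, Complex.mul_re, mul_zero, zero_add, add_zero, sub_zero] at him
  simp only [Complex.sub_re, Complex.add_re, Complex.mul_re, Complex.mul_im, Complex.ofReal_im,
    Complex.ofReal_re, Complex.zero_re, pow_two, mul_zero, sub_zero] at hre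
  have hzw : z.im = w.im := by simp [hw]
  rw [hzw]
  by_contra hne
  have hcancel : 2 * w.re * c + a = 0 := by
    have : w.im * (2 * w.re * c + a) = 0 := by nlinarith
    exact (mul_eq_zero.mp this).resolve_left hne
  have h3 : a = - (2 * w.re * c) := by linarith
  rw [h3] at hre
  have h4 : (w.re ^ 2 + w.im ^ 2) * c + b = 0 := by nlinarith
  have h5 : 0 < w.im ^ 2 := by positivity
  have h6 : 0 < (w.re ^ 2 + w.im ^ 2) * c := by positivity
  linarith

end Vale.Agent.Lib.P256
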